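import Vale.Agent.P245.QC.Iface

/-! P245, row EB (helper440): the entropy-type bound from the functional isoperimetric inequality -/

open MeasureTheory Set Filter Topology
open scoped ENNReal ContDiff

namespace Vale.Agent.P245.QC

namespace H440

theorem hasDerivAt_sqPos (M t : ℝ) :
    HasDerivAt (fun t : ℝ => max (t - M) 0 ^ 2) (2 * max (t - M) 0) t := by
  rcases lt_trichotomy t M with h | h | h
  · have h1 : (fun t : ℝ => max (t - M) 0 ^ 2) =ᶠ[𝓝 t] fun _ => 0 := by
      filter_upwards [Iio_mem_nhds h] with s hs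
      have : s - M ≤ 0 := by have := mem_Iio.1 hs; linarith
      simp [max_eq_right this]
    have h2 : max (t - M) 0 = 0 := max_eq_right (by linarith)
    rw [h2, mul_zero]
    exact (hasDerivAt_const t (0 : ℝ)).congr_of_eventuallyEq h1
  · subst h
    have h2 : max (t - t) 0 = 0 := by simp
    rw [h2, mul_zero]
    have h3 : (fun s : ℝ => max (s - t) 0 ^ 2) =O[𝓝 t] fun s => ‖s - t‖ ^ 2 := by
      refine Asymptotics.IsBigO.of_bound 1 (Eventually.of_forall fun s => ?_)
      have : |max (s - t) 0| ≤ |s - t| := by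
        rw [abs_of_nonneg (le_max_right _ _)]
        exact max_le (le_abs_self _) (abs_nonneg _)
      simp only [norm_pow, Real.norm_eq_abs, one_mul, abs_abs]
      exact pow_le_pow_left₀ (abs_nonneg _) this 2
    have h4 := (Asymptotics.IsBigO.hasFDerivAt (𝕜 := ℝ) h3 (by norm_num)).hasDerivAt
    simpa using h4
  · have h1 : (fun t : ℝ => max (t - M) 0 ^ 2) =ᶠ[𝓝 t] fun s => (s - M) ^ 2 := by
      filter_upwards [Ioi_mem_nhds h] with s hs
      have : 0 ≤ s - M := by have := mem_Ioi.1 hs; linarith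
      simp [max_eq_left this]
    have h2 : max (t - M) 0 = t - M := max_eq_left (by linarith)
    rw [h2]
    have h3 : HasDerivAt (fun s : ℝ => (s - M) ^ 2) (2 * (t - M)) t := by
      have h4 := ((hasDerivAt_id t).sub_const M).fun_pow 2
      simpa using h4
    exact h3.congr_of_eventuallyEq h1

/-- `L(t) = log (e + (t-M)_+^2/G)` -/
noncomputable def Lf (M G t : ℝ) : ℝ := Real.log (Real.exp 1 + max (t - M) 0 ^ 2 / G)

noncomputable def wf (M G t : ℝ) : ℝ :=
  1 / 4 * max (t - M) 0 * (Lf M G t + max (t - M) 0 ^ 2 / G / (Real.exp 1 + max (t - M) 0 ^ 2 / G))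

noncomputable def gf (M G t : ℝ) : ℝ := max (t - M) 0 * √(Lf M G t)

noncomputable def Pf (M G t : ℝ) : ℝ := max (t - M) 0 ^ 2 * Lf M G t

variable {M G : ℝ}

theorem den_pos (hG : 0 < G) (t : ℝ) : 0 < Real.exp 1 + max (t - M) 0 ^ 2 / G := by
  have := Real.exp_pos 1
  positivity

theorem one_le_Lf (hG : 0 < G) (t : ℝ) : 1 ≤ Lf M G t := by
  unfold Lf
  rw [Real.le_log_iff_exp_le (den_pos hG t)]
  have : 0 ≤ max (t - M) 0 ^ 2 / G := by positivity
  linarith

theorem cont_tau : Continuous fun t : ℝ => max (t - M) 0 := by fun_prop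

theorem cont_den (G : ℝ) : Continuous fun t : ℝ => Real.exp 1 + max (t - M) 0 ^ 2 / G := by
  fun_prop

theorem cont_Lf (hG : 0 < G) : Continuous (Lf M G) := by
  unfold Lf
  exact (cont_den G).log fun t => (den_pos hG t).ne'

theorem cont_wf (hG : 0 < G) : Continuous (wf M G) := by
  unfold wf
  refine (continuous_const.mul cont_tau).mul ((cont_Lf hG).add ?_)
  refine Continuous.div (by fun_prop) (cont_den G) fun t => (den_pos hG t).ne'

theorem cont_gf (hG : 0 < G) : Continuous (gf M G) := by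
  unfold gf
  exact cont_tau.mul (cont_Lf hG).sqrt

theorem cont_Pf (hG : 0 < G) : Continuous (Pf M G) := by
  unfold Pf
  exact (cont_tau.pow 2).mul (cont_Lf hG)

theorem wf_nonneg (hG : 0 < G) (t : ℝ) : 0 ≤ wf M G t := by
  unfold wf
  have h1 := one_le_Lf (M := M) hG t
  have h2 := den_pos (M := M) hG t
  have h3 : 0 ≤ max (t - M) 0 := le_max_right _ _
  have h4 : 0 ≤ max (t - M) 0 ^ 2 / G / (Real.exp 1 + max (t - M) 0 ^ 2 / G) := by positivity
  have : 0 ≤ Lf M G t + max (t - M) 0 ^ 2 / G / (Real.exp 1 + max (t - M) 0 ^ 2 / G) := by linarith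
  positivity

theorem gf_nonneg (t : ℝ) : 0 ≤ gf M G t :=
  mul_nonneg (le_max_right _ _) (Real.sqrt_nonneg _)

theorem wf_le (hG : 0 < G) (t : ℝ) : wf M G t ≤ 1 / 2 * (max (t - M) 0 * Lf M G t) := by
  unfold wf
  have h1 := one_le_Lf (M := M) hG t
  have h2 := den_pos (M := M) hG t
  have h3 : 0 ≤ max (t - M) 0 := le_max_right _ _
  have h4 : max (t - M) 0 ^ 2 / G / (Real.exp 1 + max (t - M) 0 ^ 2 / G) ≤ 1 := by
    rw [div_le_one h2]
    have := Real.exp_pos 1
    linarith
  have h5 : Lf M G t + max (t - M) 0 ^ 2 / G / (Real.exp 1 + max (t - M) 0 ^ 2 / G)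
      ≤ 2 * Lf M G t := by linarith
  calc 1 / 4 * max (t - M) 0 *
        (Lf M G t + max (t - M) 0 ^ 2 / G / (Real.exp 1 + max (t - M) 0 ^ 2 / G))
      ≤ 1 / 4 * max (t - M) 0 * (2 * Lf M G t) :=
        mul_le_mul_of_nonneg_left h5 (by positivity)
    _ = 1 / 2 * (max (t - M) 0 * Lf M G t) := by ring

theorem hasDerivAt_Pf (hG : 0 < G) (t : ℝ) : HasDerivAt (Pf M G) (8 * wf M G t) t := by
  have h1 := hasDerivAt_sqPos M t
  have h2 : HasDerivAt (fun t : ℝ => Real.exp 1 + max (t - M) 0 ^ 2 / G)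
      (2 * max (t - M) 0 / G) t := (h1.div_const G).const_add _
  have h3 := h2.log (den_pos hG t).ne'
  have h4 := h1.mul h3
  have h5 : HasDerivAt (Pf M G) (2 * max (t - M) 0 * Real.log (Real.exp 1 + max (t - M) 0 ^ 2 / G) +
      max (t - M) 0 ^ 2 * (2 * max (t - M) 0 / G / (Real.exp 1 + max (t - M) 0 ^ 2 / G))) t := h4
  convert h5 using 1
  unfold wf Lf
  have := (den_pos (M := M) hG t).ne'
  field_simp
  ring

theorem int_wf (hG : 0 < G) (hM : 0 ≤ M) (u : ℝ) :
    ∫ t in (0 : ℝ)..u, wf M G t = 1 / 8 * Pf M G u := by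
  have h1 : ∀ t ∈ Set.uIcc (0 : ℝ) u, HasDerivAt (Pf M G) (8 * wf M G t) t :=
    fun t _ => hasDerivAt_Pf hG t
  have h2 := intervalIntegral.integral_eq_sub_of_hasDerivAt h1
    (((continuous_const.mul (cont_wf hG)).intervalIntegrable _ _))
  rw [intervalIntegral.integral_const_mul] at h2
  have h3 : Pf M G 0 = 0 := by
    unfold Pf
    have : max (0 - M) 0 = 0 := max_eq_right (by linarith)
    rw [this]; simp
  rw [h3, sub_zero] at h2
  linarith

theorem gf_sq (hG : 0 < G) (t : ℝ) : gf M G t ^ 2 = Pf M G t := by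
  unfold gf Pf
  rw [mul_pow, Real.sq_sqrt (by linarith [one_le_Lf (M := M) hG t])]

/-- the key numerical comparison -/
theorem Lf_le (hG : 0 < G) {t p : ℝ} (hp : 0 < p) (hp2 : p ≤ 1 / 2)
    (hpt : p * max (t - M) 0 ^ 2 ≤ G) : Lf M G t ≤ 4 * Real.log (1 / p) := by
  set y := max (t - M) 0 ^ 2 / G with hy
  have hy0 : 0 ≤ y := by positivity
  have hq : y ≤ 1 / p := by
    rw [hy, div_le_div_iff₀ hG hp]
    linarith
  have hq2 : 2 ≤ 1 / p := by
    rw [le_div_iff₀ hp]; linarith
  have he : Real.exp 1 ≤ 3 := by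
    have := Real.exp_one_lt_d9; linarith
  have h1 : Real.exp 1 + y ≤ (1 / p) ^ 4 := by
    set q := 1 / p
    have h2 : (2:ℝ) ^ 3 ≤ q ^ 3 := pow_le_pow_left₀ (by norm_num) hq2 3
    have h3 : q ^ 4 = q * q ^ 3 := by ring
    have h4 : q * 8 ≤ q * q ^ 3 := by
      apply mul_le_mul_of_nonneg_left _ (by linarith)
      linarith
    rw [h3]
    linarith
  unfold Lf
  calc Real.log (Real.exp 1 + y) ≤ Real.log ((1 / p) ^ 4) :=
        Real.log_le_log (by have := Real.exp_pos 1; linarith) h1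
    _ = 4 * Real.log (1 / p) := by rw [Real.log_pow]; norm_num

theorem wf_le_gf (hG : 0 < G) {t p : ℝ} (hp : 0 < p) (hp2 : p ≤ 1 / 2)
    (hpt : p * max (t - M) 0 ^ 2 ≤ G) : wf M G t ≤ gf M G t * √(Real.log (1 / p)) := by
  have h1 := Lf_le hG hp hp2 hpt
  have h0 := one_le_Lf (M := M) hG t
  have h2 : √(Lf M G t) ≤ 2 * √(Real.log (1 / p)) := by
    have : √(Lf M G t) ≤ √(4 * Real.log (1 / p)) := Real.sqrt_le_sqrt h1
    rw [Real.sqrt_mul (by norm_num)] at this
    have h4 : √(4:ℝ) = 2 := by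
      rw [show (4:ℝ) = 2 ^ 2 by norm_num]; exact Real.sqrt_sq (by norm_num)
    rwa [h4] at this
  have h3 : Lf M G t = √(Lf M G t) * √(Lf M G t) := (Real.mul_self_sqrt (by linarith)).symm
  have h5 : 0 ≤ max (t - M) 0 := le_max_right _ _
  refine (wf_le hG t).trans ?_
  unfold gf
  calc 1 / 2 * (max (t - M) 0 * Lf M G t)
      = 1 / 2 * (max (t - M) 0 * (√(Lf M G t) * √(Lf M G t))) := by rw [← h3]
    _ ≤ 1 / 2 * (max (t - M) 0 * (√(Lf M G t) * (2 * √(Real.log (1 / p))))) := by
        have := Real.sqrt_nonneg (Lf M G t)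
        gcongr
    _ = max (t - M) 0 * √(Lf M G t) * √(Real.log (1 / p)) := by ring

end H440

open H440

/-- row EB -/
theorem eb : StEB := by
  intro n μ _ κ hκ f hf hfc hf0 M hM hmed hsup G hG hint
  have hfcont : Continuous f := hf.continuous
  have h0M : max (0 - M) 0 = 0 := max_eq_right (by linarith)
  -- integrability
  have hint0 : Integrable (fun x => max (f x - M) 0 ^ 2) μ := by
    have hc : HasCompactSupport ((fun t : ℝ => max (t - M) 0 ^ 2) ∘ f) :=
      hfc.comp_left (by simp only [h0M]; norm_num)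
    exact Continuous.integrable_of_hasCompactSupport
      ((by fun_prop : Continuous fun t : ℝ => max (t - M) 0 ^ 2).comp hfcont) hc
  have hPint : Integrable (fun x => Pf M G (f x)) μ := by
    have hc : HasCompactSupport ((Pf M G) ∘ f) :=
      hfc.comp_left (by unfold Pf; rw [h0M]; simp)
    exact Continuous.integrable_of_hasCompactSupport ((cont_Pf hG).comp hfcont) hc
  have hfd : Continuous (fderiv ℝ f) := hf.continuous_fderiv (by norm_num)
  have hgr : ∀ x, ‖gradient f x‖ = ‖fderiv ℝ f x‖ := fun x => by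
    unfold gradient; simp
  have hDc : HasCompactSupport (fun x => ‖fderiv ℝ f x‖) := (hfc.fderiv ℝ).norm
  have hDint : Integrable (fun x => ‖gradient f x‖ ^ 2) μ := by
    simp_rw [hgr]
    refine Continuous.integrable_of_hasCompactSupport (hfd.norm.pow 2) ?_
    exact hDc.comp_left (g := fun t : ℝ => t ^ 2) (by norm_num)
  have hgint : Integrable (fun x => gf M G (f x) * ‖gradient f x‖) μ := by
    simp_rw [hgr]
    refine Continuous.integrable_of_hasCompactSupport
      (((cont_gf hG).comp hfcont).mul hfd.norm) ?_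
    exact hDc.mul_left
  -- apply the functional inequality
  have key := hsup (gf M G) (wf M G) (cont_gf hG) (cont_wf hG) (fun t => gf_nonneg t)
    (fun t => wf_nonneg hG t)
    (fun t ht => by
      unfold wf
      rw [max_eq_right (by linarith : t - M ≤ 0)]; simp)
    (fun t ht hpos => by
      refine wf_le_gf hG hpos (hmed t ht) ?_
      have h1 := mul_meas_ge_le_integral_of_nonneg (μ := μ)
        (f := fun x => max (f x - M) 0 ^ 2) (Eventually.of_forall fun x => by positivity) hint0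
        (max (t - M) 0 ^ 2)
      have h2 : μ.real {x | t ≤ f x} ≤ μ.real {x | max (t - M) 0 ^ 2 ≤ max (f x - M) 0 ^ 2} := by
        refine measureReal_mono (fun x hx => ?_)
        have hx' : t ≤ f x := hx
        show max (t - M) 0 ^ 2 ≤ max (f x - M) 0 ^ 2
        exact pow_le_pow_left₀ (le_max_right _ _) (max_le_max (by linarith) le_rfl) 2
      calc μ.real {x | t ≤ f x} * max (t - M) 0 ^ 2
          ≤ μ.real {x | max (t - M) 0 ^ 2 ≤ max (f x - M) 0 ^ 2} * max (t - M) 0 ^ 2 := by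
            gcongr
        _ = max (t - M) 0 ^ 2 * μ.real {x | max (t - M) 0 ^ 2 ≤ max (f x - M) 0 ^ 2} := by ring
        _ ≤ ∫ x, max (f x - M) 0 ^ 2 ∂μ := h1
        _ ≤ G := hint)
  simp_rw [int_wf hG hM] at key
  rw [integral_const_mul] at key
  have hyoung : 8 * κ * ∫ x, gf M G (f x) * ‖gradient f x‖ ∂μ ≤
      1 / 2 * (∫ x, Pf M G (f x) ∂μ) + 32 * κ ^ 2 * ∫ x, ‖gradient f x‖ ^ 2 ∂μ := by
    rw [← integral_const_mul, ← integral_const_mul, ← integral_const_mul, ← integral_add
      (hPint.const_mul _) (hDint.const_mul _)]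
    refine integral_mono (hgint.const_mul _) ((hPint.const_mul _).add (hDint.const_mul _))
      (fun x => ?_)
    simp only
    rw [← gf_sq hG]
    nlinarith [sq_nonneg (gf M G (f x) - 8 * κ * ‖gradient f x‖)]
  have hfin : ∫ x, Pf M G (f x) ∂μ ≤ 64 * κ ^ 2 * ∫ x, ‖gradient f x‖ ^ 2 ∂μ := by
    nlinarith [key, hyoung]
  exact hfin

end Vale.Agent.P245.QC
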