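import Vale.Agent.P245.QC.Iface

/-! P245, row FIN: the entropy inequality for quasi-concave functions (helper783) -/

open MeasureTheory Set Filter Topology
open scoped ENNReal ContDiff

namespace Vale.Agent.P245.QC

theorem fin (hS : StSup) (hM : StMed) (hP : StPW) (hE : StEB) : StFin := by
  intro n μ hμ κ r₀ P hκ hr₀ hP0 hIso hPoin f hf hfc hf0 hqc
  obtain ⟨M, hM0, hMhalf, hMvar⟩ := hM n μ f hf.continuous hfc hf0
  have hVar := hPoin f hf hfc
  have hcf : Continuous f := hf.continuous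
  have hSup := hS n μ κ r₀ hκ hr₀ hIso f hf hfc hf0 hqc M hM0 hMhalf
  have hEB := hE n μ κ hκ f hf hfc hf0 M hM0 hMhalf hSup
  set I : ℝ := ∫ x, ‖gradient f x‖ ^ 2 ∂μ with hI
  obtain ⟨B, hB⟩ := hfc.exists_bound_of_continuous hcf
  have hint : ∀ φ : ℝ → ℝ, Continuous φ → Integrable (fun x => φ (f x)) μ := by
    intro φ hφ
    obtain ⟨D, hD⟩ := (isCompact_Icc (a := -B) (b := B)).exists_bound_of_continuousOn
      (f := φ) hφ.continuousOn
    refine Integrable.of_bound (hφ.comp hcf).aestronglyMeasurable D (ae_of_all _ fun x => ?_)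
    exact hD _ (abs_le.1 (by simpa using hB x))
  have hi1 : Integrable (fun x => f x ^ 2 * Real.log (f x ^ 2)) μ :=
    hint (fun u => u ^ 2 * Real.log (u ^ 2))
      (Real.continuous_mul_log.comp (continuous_pow 2))
  have hi2 : Integrable (fun x => f x ^ 2) μ := hint (fun u => u ^ 2) (by fun_prop)
  have hi3 : Integrable (fun x => (f x - M) ^ 2) μ := hint (fun u => (u - M) ^ 2) (by fun_prop)
  have hi4 : Integrable (fun x => max (f x - M) 0 ^ 2) μ :=
    hint (fun u => max (u - M) 0 ^ 2) (by fun_prop)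
  -- the truncated second moment
  set G₀ : ℝ := ∫ x, max (f x - M) 0 ^ 2 ∂μ with hG₀
  have hG₀0 : 0 ≤ G₀ := integral_nonneg fun x => by positivity
  have hG₀le : G₀ ≤ ∫ x, (f x - M) ^ 2 ∂μ := by
    refine integral_mono hi4 hi3 fun x => ?_
    show max (f x - M) 0 ^ 2 ≤ (f x - M) ^ 2
    rcases le_total (f x - M) 0 with h | h
    · rw [max_eq_right h]
      nlinarith [sq_nonneg (f x - M)]
    · rw [max_eq_left h]
  refine le_of_forall_pos_le_add fun ε hε => ?_
  have hε' : 0 < ε / 10 := by positivity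
  set G : ℝ := G₀ + ε / 10 with hG
  have hGpos : 0 < G := by positivity
  have hEBG := hEB G hGpos (by linarith)
  have hi5 : Integrable (fun x => max (f x - M) 0 ^ 2 *
      Real.log (Real.exp 1 + max (f x - M) 0 ^ 2 / G)) μ := by
    refine hint (fun u => max (u - M) 0 ^ 2 * Real.log (Real.exp 1 + max (u - M) 0 ^ 2 / G)) ?_
    refine Continuous.mul (by fun_prop) (Continuous.log (by fun_prop) fun u => ?_)
    have h1 := Real.exp_pos 1
    have h2 : 0 ≤ max (u - M) 0 ^ 2 / G := by positivity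
    exact ne_of_gt (by linarith)
  set c : ℝ := M ^ 2 + G with hc
  have hcpos : 0 < c := by positivity
  set m : ℝ := ∫ x, f x ^ 2 ∂μ with hm
  have hm0 : 0 ≤ m := integral_nonneg fun x => by positivity
  have hlog : m * Real.log c - m * Real.log m ≤ c - m := by
    rcases hm0.eq_or_lt with h | h
    · rw [← h]
      simpa using hcpos.le
    · have h1 : Real.log (c / m) ≤ c / m - 1 := Real.log_le_sub_one_of_pos (by positivity)
      rw [Real.log_div hcpos.ne' h.ne'] at h1
      have h2 := mul_le_mul_of_nonneg_left h1 h.le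
      have h3 : m * (c / m - 1) = c - m := by
        field_simp
      nlinarith [h2, h3]
  have hleft : ∫ x, (f x ^ 2 * Real.log (f x ^ 2) - f x ^ 2 * Real.log c - f x ^ 2 + c) ∂μ =
      (∫ x, f x ^ 2 * Real.log (f x ^ 2) ∂μ) - m * Real.log c - m + c := by
    have hj1 : Integrable (fun x => f x ^ 2 * Real.log c) μ := hi2.mul_const _
    have hj2 : Integrable (fun x => f x ^ 2 * Real.log (f x ^ 2) - f x ^ 2 * Real.log c) μ :=
      hi1.sub hj1
    have hj3 : Integrable
        (fun x => f x ^ 2 * Real.log (f x ^ 2) - f x ^ 2 * Real.log c - f x ^ 2) μ := hj2.sub hi2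
    rw [integral_add hj3 (integrable_const c), integral_sub hj2 hi2, integral_sub hi1 hj1,
      integral_mul_const]
    simp [hm]
  have hright : ∫ x, (10 * (f x - M) ^ 2 + 10 * G +
      10 * (max (f x - M) 0 ^ 2 * Real.log (Real.exp 1 + max (f x - M) 0 ^ 2 / G))) ∂μ =
      10 * (∫ x, (f x - M) ^ 2 ∂μ) + 10 * G +
      10 * ∫ x, max (f x - M) 0 ^ 2 * Real.log (Real.exp 1 + max (f x - M) 0 ^ 2 / G) ∂μ := by
    have hj1 : Integrable (fun x => 10 * (f x - M) ^ 2) μ := hi3.const_mul 10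
    have hj2 : Integrable (fun x => 10 * (f x - M) ^ 2 + 10 * G) μ :=
      hj1.add (integrable_const _)
    have hj3 : ∫ _x : EuclideanSpace ℝ (Fin n), 10 * G ∂μ = 10 * G := by
      rw [integral_const]
      simp
    rw [integral_add hj2 (hi5.const_mul 10), integral_add hj1 (integrable_const _),
      integral_const_mul, integral_const_mul 10 (fun x => max (f x - M) 0 ^ 2 *
        Real.log (Real.exp 1 + max (f x - M) 0 ^ 2 / G)), hj3]
  have hmono : ∫ x, (f x ^ 2 * Real.log (f x ^ 2) - f x ^ 2 * Real.log c - f x ^ 2 + c) ∂μ ≤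
      ∫ x, (10 * (f x - M) ^ 2 + 10 * G +
      10 * (max (f x - M) 0 ^ 2 * Real.log (Real.exp 1 + max (f x - M) 0 ^ 2 / G))) ∂μ := by
    refine integral_mono (((hi1.sub (hi2.mul_const _)).sub hi2).add (integrable_const c))
      (((hi3.const_mul 10).add (integrable_const _)).add (hi5.const_mul 10)) fun x => ?_
    exact hP M G (f x) hM0 hGpos (hf0 x)
  rw [hleft, hright] at hmono
  show (∫ x, f x ^ 2 * Real.log (f x ^ 2) ∂μ) - (∫ x, f x ^ 2 ∂μ) * Real.log (∫ x, f x ^ 2 ∂μ) ≤ _
  rw [← hm]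
  have hVar3 : ∫ x, (f x - M) ^ 2 ∂μ ≤ 3 * (P * I) := by linarith
  nlinarith [hmono, hVar3, hEBG, hG₀le, hlog]

end Vale.Agent.P245.QC
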