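import Vale.Agent.P245.QC.Iface

/-! P245, QC, row ISO (helper171): the isoperimetric inequality for convex sets from `CC` and
Brunn-Minkowski. -/

set_option linter.all false

open MeasureTheory Set Filter Topology
open scoped ENNReal ContDiff

namespace Vale.Agent.P245.QC

namespace IsoAux

theorem infDist_comb {n : ℕ} {A : Set (EuclideanSpace ℝ (Fin n))} (hA : Convex ℝ A)
    (hc : IsClosed A) (hne : A.Nonempty) (x y : EuclideanSpace ℝ (Fin n)) {a b : ℝ}
    (ha : 0 ≤ a) (hb : 0 ≤ b) (hab : a + b = 1) :
    Metric.infDist (a • x + b • y) A ≤ a * Metric.infDist x A + b * Metric.infDist y A := by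
  obtain ⟨u, hu, hu'⟩ := hc.exists_infDist_eq_dist hne x
  obtain ⟨v, hv, hv'⟩ := hc.exists_infDist_eq_dist hne y
  have h1 : a • u + b • v ∈ A := hA hu hv ha hb hab
  refine (Metric.infDist_le_dist_of_mem h1).trans ?_
  rw [hu', hv', dist_eq_norm, dist_eq_norm, dist_eq_norm]
  have h2 : a • x + b • y - (a • u + b • v) = a • (x - u) + b • (y - v) := by
    rw [smul_sub, smul_sub]; abel
  rw [h2]
  refine (norm_add_le _ _).trans ?_
  rw [norm_smul, norm_smul, Real.norm_of_nonneg ha, Real.norm_of_nonneg hb]

theorem convexOn_infDist {n : ℕ} {A : Set (EuclideanSpace ℝ (Fin n))} (hA : Convex ℝ A)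
    (hc : IsClosed A) (hne : A.Nonempty) :
    ConvexOn ℝ univ (fun x => Metric.infDist x A) :=
  ⟨convex_univ, fun x _ y _ a b ha hb hab => by
    have := infDist_comb hA hc hne x y ha hb hab
    simpa only [smul_eq_mul] using this⟩

theorem cth_eq {n : ℕ} {A : Set (EuclideanSpace ℝ (Fin n))} (hne : A.Nonempty) {r : ℝ}
    (hr : 0 ≤ r) : Metric.cthickening r A = {x | Metric.infDist x A ≤ r} := by
  ext x
  rw [Metric.mem_cthickening_iff, mem_setOf_eq, Metric.infDist,
    ← ENNReal.le_ofReal_iff_toReal_le (Metric.infEDist_ne_top hne) hr]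

/-- `D ≤ 2 √(K L)` -/
theorem mean_le {n : ℕ} {μ : Measure (EuclideanSpace ℝ (Fin n))} [IsProbabilityMeasure μ]
    {K : ℝ} (hK : 0 < K) (hCC : CC μ K)
    {A : Set (EuclideanSpace ℝ (Fin n))} (hA : Convex ℝ A)
    (hc : IsClosed A) (hp : 0 < μ.real A) (hp2 : μ.real A ≤ 1 / 2) :
    ∫ x, Metric.infDist x A ∂μ ≤ 2 * √(K * Real.log (1 / μ.real A)) := by
  have hne : A.Nonempty := by
    rw [nonempty_iff_ne_empty]
    intro h
    rw [h] at hp
    simp at hp
  set p := μ.real A with hpdef
  set L := Real.log (1 / p) with hL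
  have hLpos : 0 < L := by
    apply Real.log_pos
    rw [lt_div_iff₀ hp]; linarith
  set D := ∫ x, Metric.infDist x A ∂μ with hD
  -- the exponential inequality
  have key : ∀ t : ℝ, 0 ≤ t → t * D ≤ K * t ^ 2 + L := by
    intro t ht
    have h1 := hCC (fun x => Metric.infDist x A) (Metric.lipschitz_infDist_pt A)
      (convexOn_infDist hA hc hne) t ht
    have hmeas : Measurable (fun x => Real.exp (-t * (Metric.infDist x A - D))) := by
      have : Continuous (fun x => Real.exp (-t * (Metric.infDist x A - D))) := by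
        have := Metric.continuous_infDist_pt A
        fun_prop
      exact this.measurable
    have hint : Integrable (fun x => Real.exp (-t * (Metric.infDist x A - D))) μ := by
      refine Integrable.mono' (g := fun _ => Real.exp (t * D)) (integrable_const _)
        hmeas.aestronglyMeasurable (Eventually.of_forall fun x => ?_)
      rw [Real.norm_of_nonneg (Real.exp_pos _).le]
      apply Real.exp_le_exp.2
      have : 0 ≤ Metric.infDist x A := Metric.infDist_nonneg
      nlinarith [mul_nonneg ht this]
    have h2 : p * Real.exp (t * D) ≤ ∫ x, Real.exp (-t * (Metric.infDist x A - D)) ∂μ := by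
      have h3 : ∫ x in A, Real.exp (-t * (Metric.infDist x A - D)) ∂μ = p * Real.exp (t * D) := by
        rw [setIntegral_congr_fun (g := fun _ => Real.exp (t * D)) hc.measurableSet]
        · simp [hpdef]
        · intro x hx
          simp only
          rw [Metric.infDist_zero_of_mem hx]
          congr 1; ring
      rw [← h3]
      exact setIntegral_le_integral hint (Eventually.of_forall fun x => (Real.exp_pos _).le)
    have h4 : p * Real.exp (t * D) ≤ Real.exp (K * t ^ 2) := h2.trans h1
    have h5 : Real.log (p * Real.exp (t * D)) ≤ K * t ^ 2 := by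
      rw [← Real.log_exp (K * t ^ 2)]
      exact Real.log_le_log (by positivity) h4
    rw [Real.log_mul hp.ne' (Real.exp_pos _).ne', Real.log_exp] at h5
    have h6 : L = - Real.log p := by rw [hL, one_div, Real.log_inv]
    linarith
  have h7 := key (√(L / K)) (Real.sqrt_nonneg _)
  set t := √(L / K) with ht
  have htpos : 0 < t := Real.sqrt_pos.2 (by positivity)
  have ht2 : t ^ 2 = L / K := Real.sq_sqrt (by positivity)
  have h8 : K * t ^ 2 = L := by rw [ht2]; field_simp
  have h9 : t * √(K * L) = L := by
    rw [ht, ← Real.sqrt_mul (by positivity)]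
    have : L / K * (K * L) = L ^ 2 := by field_simp
    rw [this, Real.sqrt_sq hLpos.le]
  have h10 : t * D ≤ t * (2 * √(K * L)) := by
    calc t * D ≤ K * t ^ 2 + L := h7
      _ = L + L := by rw [h8]
      _ = t * (2 * √(K * L)) := by linarith
  exact le_of_mul_le_mul_left h10 htpos

end IsoAux

open IsoAux in
theorem iso (hBM : StBM) : StIso := by
  intro n μ _ hlc K hK hCC hint A hA hc hp hp2 r hr hr0
  have hne : A.Nonempty := by
    rw [nonempty_iff_ne_empty]
    intro h
    rw [h] at hp
    simp at hp
  have hmean := mean_le hK hCC hA hc hp hp2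
  have hA0 : μ.real A ≤ μ.real (Metric.cthickening r A) :=
    measureReal_mono (Metric.self_subset_cthickening A)
  rcases hr.eq_or_lt with h0 | hrpos
  · rw [← h0] at hA0 ⊢
    simpa using hA0
  set p := μ.real A with hpdef
  set L := Real.log (1 / p) with hL
  have hlog2 : 0 < Real.log 2 := Real.log_pos (by norm_num)
  have hLlog : Real.log 2 ≤ L := by
    apply Real.log_le_log (by norm_num)
    rw [le_div_iff₀ hp]; linarith
  have hLpos : 0 < L := lt_of_lt_of_le hlog2 hLlog
  have hKL : 0 < √(K * L) := Real.sqrt_pos.2 (by positivity)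
  set R := 8 * √(K * L) with hR
  have hRpos : 0 < R := by positivity
  have hrR : r ≤ R := by
    refine hr0.trans ?_
    rw [hR]
    gcongr
  -- Markov
  have hMar : 3 / 4 ≤ μ.real (Metric.cthickening R A) := by
    have h1 : R * μ.real {x | R ≤ Metric.infDist x A} ≤ ∫ x, Metric.infDist x A ∂μ :=
      mul_meas_ge_le_integral_of_nonneg (Eventually.of_forall fun x => Metric.infDist_nonneg)
        (hint _ (Metric.lipschitz_infDist_pt A)) R
    have h2 : μ.real {x | R ≤ Metric.infDist x A} ≤ 1 / 4 := by
      have h3 : R * μ.real {x | R ≤ Metric.infDist x A} ≤ R * (1 / 4) := by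
        refine h1.trans (hmean.trans ?_)
        rw [hR]; linarith
      exact le_of_mul_le_mul_left h3 hRpos
    have h4 : (Metric.cthickening R A)ᶜ ⊆ {x | R ≤ Metric.infDist x A} := by
      rw [cth_eq hne hRpos.le]
      intro x hx
      simp only [mem_compl_iff, mem_setOf_eq, not_le] at hx ⊢
      exact hx.le
    have h5 : μ.real (Metric.cthickening R A)ᶜ ≤ 1 / 4 := (measureReal_mono h4).trans h2
    have h6 := measureReal_compl (μ := μ) (Metric.isClosed_cthickening (δ := R) (E := A)).measurableSet
    rw [probReal_univ] at h6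
    linarith
  set s := r / R with hs
  have hspos : 0 < s := by positivity
  have hs1 : s ≤ 1 := by rw [hs, div_le_one hRpos]; exact hrR
  have hsR : s * R = r := by rw [hs]; field_simp
  have hmain : p ^ (1 - s) * (3 / 4 : ℝ) ^ s ≤ μ.real (Metric.cthickening r A) := by
    rcases hs1.eq_or_lt with h1 | h1
    · have : r = R := by rw [← hsR, h1, one_mul]
      rw [h1, this]
      simpa using hMar
    · have h2 := hBM n μ hlc A (Metric.cthickening R A) (Metric.cthickening r A)
        hc.measurableSet (Metric.isClosed_cthickening (δ := R) (E := A)).measurableSet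
        (Metric.isClosed_cthickening (δ := r) (E := A)).measurableSet s hspos h1 (by
          intro x hx y hy
          rw [cth_eq hne hRpos.le, mem_setOf_eq] at hy
          rw [cth_eq hne hr, mem_setOf_eq]
          refine (infDist_comb hA hc hne x y (by linarith) hspos.le (by ring)).trans ?_
          rw [Metric.infDist_zero_of_mem hx, mul_zero, zero_add]
          calc s * Metric.infDist y A ≤ s * R := by gcongr
            _ = r := hsR)
      refine le_trans ?_ h2
      gcongr
  refine le_trans ?_ hmain
  -- numbers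
  have h34 : (3 / 4 : ℝ) = p * (3 / (4 * p)) := by field_simp
  have hq : 0 < 3 / (4 * p) := by positivity
  have e1 : p ^ (1 - s) * (3 / 4 : ℝ) ^ s = p * (3 / (4 * p)) ^ s := by
    rw [show (3 / 4 : ℝ) ^ s = (p * (3 / (4 * p))) ^ s by rw [← h34]]
    rw [Real.mul_rpow hp.le hq.le, ← mul_assoc, ← Real.rpow_add hp]
    simp
  rw [e1]
  have e2 : 1 + s * Real.log (3 / (4 * p)) ≤ (3 / (4 * p)) ^ s := by
    rw [Real.rpow_def_of_pos hq, mul_comm (Real.log _) s]
    have := Real.add_one_le_exp (s * Real.log (3 / (4 * p)))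
    linarith
  have e3 : L / 2 ≤ Real.log (3 / (4 * p)) := by
    have h1 : Real.log (3 / (4 * p)) = Real.log (3 / 4) + L := by
      rw [hL, ← Real.log_mul (by norm_num) (by positivity)]
      congr 1; field_simp
    have h2 : - (Real.log 2 / 2) ≤ Real.log (3 / 4) := by
      have h3 : Real.log (1 / 2) ≤ Real.log ((3 / 4) ^ 2) := Real.log_le_log (by norm_num) (by norm_num)
      rw [Real.log_pow, one_div, Real.log_inv] at h3
      push_cast at h3
      linarith
    rw [h1]; linarith
  have e4 : r * √L / (16 * √K) = s * (L / 2) := by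
    rw [hs, hR, Real.sqrt_mul hK.le]
    have hsK : 0 < √K := Real.sqrt_pos.2 hK
    have hsL : 0 < √L := Real.sqrt_pos.2 hLpos
    have : L = √L * √L := (Real.mul_self_sqrt hLpos.le).symm
    nth_rewrite 3 [this]
    field_simp
    ring
  rw [e4]
  apply mul_le_mul_of_nonneg_left _ hp.le
  calc 1 + s * (L / 2) ≤ 1 + s * Real.log (3 / (4 * p)) := by gcongr
    _ ≤ _ := e2

end Vale.Agent.P245.QC
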