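import Vale.Agent.P245.QC.Iface

/-! P245, row MED (helper12) -/

open MeasureTheory Set Filter Topology
open scoped ENNReal ContDiff

namespace Vale.Agent.P245.QC.H12

variable {n : ℕ} {μ : Measure (EuclideanSpace ℝ (Fin n))} [IsProbabilityMeasure μ]
  {f : EuclideanSpace ℝ (Fin n) → ℝ}

theorem int_sq (hi : Integrable f μ) (hi2 : Integrable (fun x => f x ^ 2) μ) (c : ℝ) :
    ∫ x, (f x - c) ^ 2 ∂μ =
      ((∫ x, f x ^ 2 ∂μ) - (∫ x, f x ∂μ) ^ 2) + ((∫ x, f x ∂μ) - c) ^ 2 := by
  have e : (fun x => (f x - c) ^ 2) = fun x => f x ^ 2 - (2 * c) * f x + c ^ 2 := by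
    funext x; ring
  have h1 : Integrable (fun x => f x ^ 2 - (2 * c) * f x) μ := hi2.sub (hi.const_mul _)
  rw [e, integral_add h1 (integrable_const _), integral_sub hi2 (hi.const_mul _),
    integral_const_mul, integral_const, probReal_univ, one_smul]
  ring

theorem cheb (hi : Integrable f μ) (hi2 : Integrable (fun x => f x ^ 2) μ) {A : Set _} {d : ℝ}
    (hd : 0 ≤ d) (hA : 1 / 2 ≤ μ.real A) (h : ∀ x ∈ A, d ≤ |f x - ∫ y, f y ∂μ|) :
    d ^ 2 ≤ 2 * ((∫ x, f x ^ 2 ∂μ) - (∫ x, f x ∂μ) ^ 2) := by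
  have h0 := int_sq hi hi2 (∫ y, f y ∂μ)
  rw [sub_self, zero_pow two_ne_zero, add_zero] at h0
  have hint : Integrable (fun x => (f x - ∫ y, f y ∂μ) ^ 2) μ := by
    have e : (fun x => (f x - ∫ y, f y ∂μ) ^ 2) =
        fun x => f x ^ 2 - (2 * ∫ y, f y ∂μ) * f x + (∫ y, f y ∂μ) ^ 2 := by
      funext x; ring
    rw [e]
    exact (hi2.sub (hi.const_mul _)).add (integrable_const _)
  have h1 := mul_meas_ge_le_integral_of_nonneg (μ := μ)
    (f := fun x => (f x - ∫ y, f y ∂μ) ^ 2) (Eventually.of_forall fun x => sq_nonneg _) hint (d ^ 2)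
  have h2 : μ.real A ≤ μ.real {x | d ^ 2 ≤ (f x - ∫ y, f y ∂μ) ^ 2} := by
    refine measureReal_mono fun x hx => ?_
    have h3 := h x hx
    show d ^ 2 ≤ (f x - ∫ y, f y ∂μ) ^ 2
    rw [← sq_abs (f x - ∫ y, f y ∂μ)]
    exact pow_le_pow_left₀ hd h3 2
  have h4 : d ^ 2 * (1 / 2) ≤ d ^ 2 * μ.real {x | d ^ 2 ≤ (f x - ∫ y, f y ∂μ) ^ 2} :=
    mul_le_mul_of_nonneg_left (hA.trans h2) (sq_nonneg d)
  linarith

theorem med : StMed := by
  intro n μ _ f hf hc h0
  have hi : Integrable f μ := hf.integrable_of_hasCompactSupport hc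
  have hi2 : Integrable (fun x => f x ^ 2) μ := by
    have hcc : HasCompactSupport (f * f) := hc.mul_left
    have h := (hf.mul hf).integrable_of_hasCompactSupport (μ := μ) hcc
    have e : (fun x => f x ^ 2) = fun x => f x * f x := by funext x; ring
    rw [e]
    exact h
  obtain ⟨B, hB⟩ := hf.bounded_above_of_compact_support hc
  set m := ∫ x, f x ∂μ with hm
  set V := (∫ x, f x ^ 2 ∂μ) - m ^ 2 with hV
  let S : Set ℝ := {t | 0 ≤ t ∧ μ.real {x | t < f x} ≤ 1 / 2}
  have hSb : BddBelow S := ⟨0, fun t ht => ht.1⟩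
  have hSn : S.Nonempty := by
    refine ⟨max B 0, le_max_right _ _, ?_⟩
    have : {x | max B 0 < f x} = ∅ := by
      ext x
      simp only [mem_setOf_eq, mem_empty_iff_false, iff_false, not_lt]
      exact (le_abs_self _).trans ((hB x).trans (le_max_left _ _))
    rw [this]
    simp
  have hM0 : 0 ≤ sInf S := le_csInf hSn fun t ht => ht.1
  have hup : ∀ t, sInf S < t → ∃ s ∈ S, s < t := fun t ht => exists_lt_of_csInf_lt hSn ht
  have hlo : ∀ t, 0 ≤ t → t < sInf S → 1 / 2 < μ.real {x | t < f x} := by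
    intro t ht ht'
    by_contra hcon
    exact absurd (csInf_le hSb ⟨ht, not_lt.1 hcon⟩) (not_le.2 ht')
  have hm0 : 0 ≤ m := integral_nonneg h0
  have hVe := int_sq hi hi2 m
  have hV0 : 0 ≤ V := by
    rw [← hm, sub_self, zero_pow two_ne_zero, add_zero] at hVe
    rw [hV, ← hVe]
    exact integral_nonneg fun x => sq_nonneg _
  have key : (m - sInf S) ^ 2 ≤ 2 * V := by
    by_contra hcon
    rw [not_le] at hcon
    have hsq : √(2 * V) < |m - sInf S| := by
      rw [← Real.sqrt_sq_eq_abs]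
      exact Real.sqrt_lt_sqrt (by linarith) hcon
    have hs0 := Real.sqrt_nonneg (2 * V)
    have hss : √(2 * V) ^ 2 = 2 * V := Real.sq_sqrt (by linarith)
    rcases le_total m (sInf S) with h1 | h1
    · rw [abs_of_nonpos (by linarith)] at hsq
      have ht1 : m + √(2 * V) < (m + √(2 * V) + sInf S) / 2 := by linarith
      have ht2 : (m + √(2 * V) + sInf S) / 2 < sInf S := by linarith
      have h2 := hlo _ (by linarith) ht2
      have h3 := cheb hi hi2 (A := {x | (m + √(2 * V) + sInf S) / 2 < f x})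
        (d := (m + √(2 * V) + sInf S) / 2 - m) (by linarith) h2.le (fun x hx => by
          have hx' : (m + √(2 * V) + sInf S) / 2 < f x := hx
          rw [← hm]
          exact (le_abs_self _).trans' (by linarith))
      nlinarith
    · rw [abs_of_nonneg (by linarith)] at hsq
      obtain ⟨s, hs, hst⟩ := hup ((m - √(2 * V) + sInf S) / 2) (by linarith)
      have h2 : 1 / 2 ≤ μ.real {x | s < f x}ᶜ := by
        rw [probReal_compl_eq_one_sub (measurableSet_lt measurable_const hf.measurable)]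
        linarith [hs.2]
      have h3 := cheb hi hi2 (A := {x | s < f x}ᶜ)
        (d := m - (m - √(2 * V) + sInf S) / 2) (by linarith) h2 (fun x hx => by
          have hx' : f x ≤ s := not_lt.1 hx
          rw [← hm, abs_sub_comm]
          exact (le_abs_self _).trans' (by linarith))
      nlinarith
  refine ⟨sInf S, hM0, fun t ht => ?_, ?_⟩
  · obtain ⟨s, hs, hst⟩ := hup t ht
    refine le_trans (measureReal_mono fun x hx => ?_) hs.2
    exact lt_of_lt_of_le hst hx
  · rw [int_sq hi hi2 (sInf S), ← hm]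
    linarith

end Vale.Agent.P245.QC.H12
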