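import Vale.Agent.P245.QC.Iface

/-! P245, row PW (helper12) -/

open MeasureTheory Set Filter Topology
open scoped ENNReal ContDiff

namespace Vale.Agent.P245.QC.H12

theorem pw : StPW := by
  intro M G u hM hG hu
  have hc : 0 < M ^ 2 + G := by positivity
  obtain ⟨r, hr0, hr⟩ : ∃ r : ℝ, 0 < r ∧ r ^ 2 = M ^ 2 + G :=
    ⟨√(M ^ 2 + G), Real.sqrt_pos.2 hc, Real.sq_sqrt hc.le⟩
  have hMr : M ≤ r := by
    by_contra h
    rw [not_le] at h
    nlinarith
  have hrM : (r - M) ^ 2 ≤ G := by nlinarith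
  set s : ℝ := max (u - M) 0 ^ 2 / G with hs
  have hs0 : 0 ≤ s := by positivity
  have hL : 1 ≤ Real.log (Real.exp 1 + s) := by
    rw [Real.le_log_iff_exp_le (by positivity)]
    linarith
  have hT : 0 ≤ 10 * (max (u - M) 0 ^ 2 * Real.log (Real.exp 1 + s)) := by positivity
  -- the first bound
  have b1 : u ^ 2 * Real.log (u ^ 2) - u ^ 2 * Real.log (M ^ 2 + G) ≤ 2 * u ^ 2 * (u / r - 1) := by
    rcases hu.eq_or_lt with h | h
    · rw [← h]; simp
    · have h1 : Real.log (u ^ 2) - Real.log (M ^ 2 + G) = 2 * Real.log (u / r) := by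
        rw [← hr, Real.log_pow, Real.log_pow, Real.log_div h.ne' hr0.ne']
        push_cast; ring
      have h2 : Real.log (u / r) ≤ u / r - 1 := Real.log_le_sub_one_of_pos (div_pos h hr0)
      have h3 : u ^ 2 * Real.log (u ^ 2) - u ^ 2 * Real.log (M ^ 2 + G) =
          u ^ 2 * (2 * Real.log (u / r)) := by rw [← h1]; ring
      rw [h3]
      have : 0 ≤ u ^ 2 := sq_nonneg u
      nlinarith
  obtain ⟨v, hv⟩ : ∃ v : ℝ, v = u / r := ⟨_, rfl⟩
  have huv : u = v * r := by rw [hv]; field_simp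
  have hv0 : 0 ≤ v := by rw [hv]; positivity
  have b2 : u ^ 2 * Real.log (u ^ 2) - u ^ 2 * Real.log (M ^ 2 + G) - u ^ 2 + (M ^ 2 + G) ≤
      (2 * v + 1) * (u - r) ^ 2 := by
    rw [← hv] at b1
    have e : (2 * v + 1) * (u - r) ^ 2 = 2 * u ^ 2 * (v - 1) - u ^ 2 + r ^ 2 := by
      rw [huv]; ring
    rw [e, ← hr]
    rw [← hr] at b1
    linarith
  rcases le_total v 1 with h1 | h1
  · have h3 : (2 * v + 1) * (u - r) ^ 2 ≤ 3 * (u - r) ^ 2 :=
      mul_le_mul_of_nonneg_right (by linarith) (sq_nonneg _)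
    nlinarith [sq_nonneg (u - M + (r - M)), sq_nonneg (u - M)]
  have hur : r ≤ u := by rw [huv]; nlinarith
  have hm : max (u - M) 0 = u - M := max_eq_left (by linarith)
  rcases le_total v 4 with h4 | h4
  · have h3 : (2 * v + 1) * (u - r) ^ 2 ≤ 9 * (u - r) ^ 2 :=
      mul_le_mul_of_nonneg_right (by linarith) (sq_nonneg _)
    have h5 : (u - r) ^ 2 ≤ (u - M) ^ 2 := by nlinarith
    nlinarith [sq_nonneg (u - M)]
  · -- `u ≥ 4 r`
    have hu4 : 4 * r ≤ u := by rw [huv]; nlinarith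
    have hu0 : 0 < u := by linarith
    have h5 : u ^ 2 ≤ 16 / 9 * (u - M) ^ 2 := by nlinarith
    have h6 : Real.log (u ^ 2) - Real.log (M ^ 2 + G) ≤ 2 * Real.log (Real.exp 1 + s) := by
      rw [← Real.log_div (by positivity) hc.ne']
      have he : (2 : ℝ) < Real.exp 1 := by linarith [Real.exp_one_gt_d9]
      have h7 : u ^ 2 / (M ^ 2 + G) ≤ Real.exp 1 * (Real.exp 1 + s) := by
        have h8 : u ^ 2 / (M ^ 2 + G) ≤ 16 / 9 * s := by
          rw [hs, hm, div_le_iff₀ hc]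
          have h9 : (u - M) ^ 2 ≤ (u - M) ^ 2 / G * (M ^ 2 + G) := by
            have : (u - M) ^ 2 / G * (M ^ 2 + G) = (u - M) ^ 2 + (u - M) ^ 2 / G * M ^ 2 := by
              field_simp
              ring
            rw [this]
            have : 0 ≤ (u - M) ^ 2 / G * M ^ 2 := by positivity
            linarith
          calc u ^ 2 ≤ 16 / 9 * (u - M) ^ 2 := h5
            _ ≤ 16 / 9 * ((u - M) ^ 2 / G * (M ^ 2 + G)) := by linarith
            _ = 16 / 9 * ((u - M) ^ 2 / G) * (M ^ 2 + G) := by ring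
        nlinarith
      have h8 := Real.log_le_log (by positivity) h7
      rw [Real.log_mul (Real.exp_pos 1).ne' (by positivity), Real.log_exp] at h8
      linarith
    have h7 : u ^ 2 * Real.log (u ^ 2) - u ^ 2 * Real.log (M ^ 2 + G) ≤
        u ^ 2 * (2 * Real.log (Real.exp 1 + s)) := by
      have := mul_le_mul_of_nonneg_left h6 (sq_nonneg u)
      linarith
    have h8 : u ^ 2 * (2 * Real.log (Real.exp 1 + s)) ≤
        16 / 9 * (u - M) ^ 2 * (2 * Real.log (Real.exp 1 + s)) :=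
      mul_le_mul_of_nonneg_right h5 (by linarith)
    have h9 : M ^ 2 + G ≤ u ^ 2 := by rw [← hr]; nlinarith
    rw [hm]
    have h10 : 0 ≤ (u - M) ^ 2 * Real.log (Real.exp 1 + s) := by positivity
    have h11 : 16 / 9 * (u - M) ^ 2 * (2 * Real.log (Real.exp 1 + s)) =
        32 / 9 * ((u - M) ^ 2 * Real.log (Real.exp 1 + s)) := by ring
    have h12 := sq_nonneg (u - M)
    linarith

end Vale.Agent.P245.QC.H12
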