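import Vale.Agent.P245.QC.Iface

/-! P245, row SUP (helper719) -/

open MeasureTheory Set Filter Topology
open scoped ENNReal ContDiff

namespace Vale.Agent.P245.QC

variable {n : ℕ}

/-- sup-convolution -/
noncomputable def Qs (f : EuclideanSpace ℝ (Fin n) → ℝ) (r : ℝ) (x : EuclideanSpace ℝ (Fin n)) :
    ℝ :=
  sSup ((fun h => f (x + h)) '' Metric.closedBall 0 r)

theorem Qs_continuous {f : EuclideanSpace ℝ (Fin n) → ℝ} (hf : Continuous f) (r : ℝ) :
    Continuous (Qs f r) := by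
  have h := IsCompact.continuous_sSup (f := fun x h : EuclideanSpace ℝ (Fin n) => f (x + h))
    (isCompact_closedBall (0 : EuclideanSpace ℝ (Fin n)) r)
    (hf.comp (continuous_fst.add continuous_snd))
  exact h

theorem Qs_attained {f : EuclideanSpace ℝ (Fin n) → ℝ} (hf : Continuous f) {r : ℝ} (hr : 0 ≤ r)
    (x : EuclideanSpace ℝ (Fin n)) :
    ∃ h ∈ Metric.closedBall (0 : EuclideanSpace ℝ (Fin n)) r, Qs f r x = f (x + h) := by
  have hne : (Metric.closedBall (0 : EuclideanSpace ℝ (Fin n)) r).Nonempty :=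
    ⟨0, Metric.mem_closedBall_self hr⟩
  have hc : Continuous fun h => f (x + h) := hf.comp (continuous_const.add continuous_id)
  exact (isCompact_closedBall (0 : EuclideanSpace ℝ (Fin n)) r).exists_sSup_image_eq hne
    hc.continuousOn

theorem le_Qs {f : EuclideanSpace ℝ (Fin n) → ℝ} (hf : Continuous f) {r : ℝ}
    (x : EuclideanSpace ℝ (Fin n)) {h : EuclideanSpace ℝ (Fin n)} (hh : ‖h‖ ≤ r) :
    f (x + h) ≤ Qs f r x := by
  have hc : Continuous fun h => f (x + h) := hf.comp (continuous_const.add continuous_id)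
  refine le_csSup ?_ ⟨h, by simpa using hh, rfl⟩
  exact ((isCompact_closedBall (0 : EuclideanSpace ℝ (Fin n)) r).image hc).bddAbove

theorem le_Qs_self {f : EuclideanSpace ℝ (Fin n) → ℝ} (hf : Continuous f) {r : ℝ} (hr : 0 ≤ r)
    (x : EuclideanSpace ℝ (Fin n)) : f x ≤ Qs f r x := by
  have := le_Qs hf x (h := 0) (r := r) (by simpa using hr)
  simpa using this

theorem setOf_le_Qs {f : EuclideanSpace ℝ (Fin n) → ℝ} (hf : Continuous f)
    {r t : ℝ} (hr : 0 ≤ r) :
    {x | t ≤ Qs f r x} = Metric.cthickening r {x | t ≤ f x} := by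
  have hcl : IsClosed {x | t ≤ f x} := isClosed_le continuous_const hf
  rw [hcl.cthickening_eq_biUnion_closedBall hr]
  ext x
  simp only [mem_iUnion, Metric.mem_closedBall, exists_prop, Set.mem_ofPred_eq]
  constructor
  · intro hx
    obtain ⟨h, hh, e⟩ := Qs_attained hf hr x
    refine ⟨x + h, by rw [← e]; exact hx, ?_⟩
    rw [dist_eq_norm]
    have : x - (x + h) = -h := by abel
    rw [this, norm_neg]
    simpa using hh
  · rintro ⟨y, hy, hxy⟩
    have : f (x + (y - x)) ≤ Qs f r x := by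
      apply le_Qs hf
      rw [← dist_eq_norm, dist_comm]
      exact hxy
    rw [add_sub_cancel] at this
    exact hy.trans this

theorem bdd_of_compact {f : EuclideanSpace ℝ (Fin n) → ℝ} (hf : Continuous f)
    (hc : HasCompactSupport f) : ∃ B : ℝ, 0 ≤ B ∧ ∀ x, |f x| ≤ B := by
  obtain ⟨C, hC⟩ := hc.exists_bound_of_continuous hf
  exact ⟨C, (norm_nonneg _).trans (hC 0), hC⟩

theorem int_bdd {μ : Measure (EuclideanSpace ℝ (Fin n))} [IsProbabilityMeasure μ]
    {u : EuclideanSpace ℝ (Fin n) → ℝ} (hu : Continuous u) {B : ℝ} (hB : ∀ x, |u x| ≤ B) :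
    Integrable u μ :=
  Integrable.of_bound hu.aestronglyMeasurable B (Eventually.of_forall hB)

/-- the primitive -/
noncomputable def Pr (γ : ℝ → ℝ) (u : ℝ) : ℝ := ∫ t in (0 : ℝ)..u, γ t

theorem Pr_continuous {γ : ℝ → ℝ} (hγ : Continuous γ) : Continuous (Pr γ) :=
  intervalIntegral.continuous_primitive (fun a b => hγ.intervalIntegrable a b) 0

theorem Pr_nonneg {γ : ℝ → ℝ} (h0 : ∀ t, 0 ≤ γ t) {u : ℝ} (hu : 0 ≤ u) : 0 ≤ Pr γ u :=
  intervalIntegral.integral_nonneg hu fun t _ => h0 t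

theorem Pr_mono {γ : ℝ → ℝ} (hγ : Continuous γ) (h0 : ∀ t, 0 ≤ γ t) {u v : ℝ} (huv : u ≤ v) :
    Pr γ u ≤ Pr γ v := by
  have h := intervalIntegral.integral_add_adjacent_intervals (hγ.intervalIntegrable 0 u)
    (hγ.intervalIntegrable u v) (μ := volume)
  have h2 : 0 ≤ ∫ t in u..v, γ t := intervalIntegral.integral_nonneg huv fun t _ => h0 t
  unfold Pr
  linarith

theorem int_Pr {μ : Measure (EuclideanSpace ℝ (Fin n))} [IsProbabilityMeasure μ]
    {γ : ℝ → ℝ} (hγ : Continuous γ) (h0 : ∀ t, 0 ≤ γ t) {u : EuclideanSpace ℝ (Fin n) → ℝ}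
    (hu : Continuous u) {B : ℝ} (hB : ∀ x, u x ≤ B) (hu0 : ∀ x, 0 ≤ u x) :
    Integrable (fun x => Pr γ (u x)) μ := by
  refine int_bdd ((Pr_continuous hγ).comp hu) (B := Pr γ B) fun x => ?_
  rw [abs_of_nonneg (Pr_nonneg h0 (hu0 x))]
  exact Pr_mono hγ h0 (hB x)

theorem layer {μ : Measure (EuclideanSpace ℝ (Fin n))} [IsProbabilityMeasure μ]
    {γ : ℝ → ℝ} (hγ : Continuous γ) (h0 : ∀ t, 0 ≤ γ t) {u : EuclideanSpace ℝ (Fin n) → ℝ}
    (hu : Continuous u) {B : ℝ} (hB : ∀ x, u x ≤ B) (hu0 : ∀ x, 0 ≤ u x) :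
    ENNReal.ofReal (∫ x, Pr γ (u x) ∂μ) =
      ∫⁻ t in Ioi 0, μ {x | t ≤ u x} * ENNReal.ofReal (γ t) := by
  rw [← lintegral_comp_eq_lintegral_meas_le_mul μ (Eventually.of_forall hu0) hu.aemeasurable
    (fun t _ => hγ.intervalIntegrable 0 t) (Eventually.of_forall h0)]
  rw [ofReal_integral_eq_lintegral_ofReal (int_Pr hγ h0 hu hB hu0)
    (Eventually.of_forall fun x => Pr_nonneg h0 (hu0 x))]
  rfl

/-- lower bound for the increment -/
theorem lower {μ : Measure (EuclideanSpace ℝ (Fin n))} [IsProbabilityMeasure μ] {κ r₀ : ℝ}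
    (hκ : 0 < κ) (hiso : Iso μ κ r₀) {f : EuclideanSpace ℝ (Fin n) → ℝ}
    (hf : Continuous f) (hc : HasCompactSupport f) (hf0 : ∀ x, 0 ≤ f x)
    (hq : QuasiconcaveOn ℝ univ f) {M : ℝ}
    (hM : ∀ t, M < t → μ.real {x | t ≤ f x} ≤ 1 / 2) {γ w : ℝ → ℝ} (hγ : Continuous γ)
    (hw : Continuous w) (hγ0 : ∀ t, 0 ≤ γ t) (hw0 : ∀ t, 0 ≤ w t) (hwM : ∀ t ≤ M, w t = 0)
    (hwγ : ∀ t, M < t → 0 < μ.real {x | t ≤ f x} →
      w t ≤ γ t * √(Real.log (1 / μ.real {x | t ≤ f x}))) {r : ℝ} (hr : 0 < r) (hr0 : r ≤ r₀) :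
    ∫ x, Pr γ (f x) ∂μ + r / κ * ∫ x, Pr w (f x) ∂μ ≤ ∫ x, Pr γ (Qs f r x) ∂μ := by
  obtain ⟨B, hB0, hB⟩ := bdd_of_compact hf hc
  have hfB : ∀ x, f x ≤ B := fun x => (le_abs_self _).trans (hB x)
  have hQB : ∀ x, Qs f r x ≤ B := by
    intro x
    obtain ⟨h, -, e⟩ := Qs_attained hf hr.le x
    rw [e]
    exact hfB _
  have hQ0 : ∀ x, 0 ≤ Qs f r x := fun x => (hf0 x).trans (le_Qs_self hf hr.le x)
  have i1 : 0 ≤ ∫ x, Pr γ (f x) ∂μ := integral_nonneg fun x => Pr_nonneg hγ0 (hf0 x)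
  have i2 : 0 ≤ ∫ x, Pr w (f x) ∂μ := integral_nonneg fun x => Pr_nonneg hw0 (hf0 x)
  have i3 : 0 ≤ ∫ x, Pr γ (Qs f r x) ∂μ := integral_nonneg fun x => Pr_nonneg hγ0 (hQ0 x)
  rw [← ENNReal.ofReal_le_ofReal_iff i3, ENNReal.ofReal_add i1 (by positivity),
    ENNReal.ofReal_mul (by positivity), layer hγ hγ0 hf hfB hf0, layer hw hw0 hf hfB hf0,
    layer hγ hγ0 (Qs_continuous hf r) hQB hQ0]
  have hm : ∀ u : EuclideanSpace ℝ (Fin n) → ℝ, Measurable fun t : ℝ => μ {x | t ≤ u x} := by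
    intro u
    exact Antitone.measurable fun s t hst => measure_mono fun x hx => le_trans hst hx
  have m1 : Measurable fun t : ℝ => μ {x | t ≤ f x} * ENNReal.ofReal (w t) :=
    (hm f).mul hw.measurable.ennreal_ofReal
  have m2 : Measurable fun t : ℝ => μ {x | t ≤ f x} * ENNReal.ofReal (γ t) :=
    (hm f).mul hγ.measurable.ennreal_ofReal
  rw [← lintegral_const_mul _ m1, ← lintegral_add_left m2]
  apply lintegral_mono
  intro t
  simp only
  have hsub : {x | t ≤ f x} ⊆ {x | t ≤ Qs f r x} := fun x hx =>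
    le_trans hx (le_Qs_self hf hr.le x)
  by_cases htM : t ≤ M
  · rw [hwM t htM]
    simp only [ENNReal.ofReal_zero, mul_zero, add_zero]
    gcongr
  · push Not at htM
    by_cases hp : μ.real {x | t ≤ f x} = 0
    · have : μ {x | t ≤ f x} = 0 := by
        rwa [measureReal_eq_zero_iff] at hp
      simp [this]
    · have hp0 : 0 < μ.real {x | t ≤ f x} := lt_of_le_of_ne measureReal_nonneg (Ne.symm hp)
      have hconv : Convex ℝ {x | t ≤ f x} := by
        have := hq t
        simpa using this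
      have hcl : IsClosed {x | t ≤ f x} := isClosed_le continuous_const hf
      have h1 := hiso _ hconv hcl hp0 (hM t htM) r hr.le hr0
      rw [← setOf_le_Qs hf hr.le] at h1
      set p := μ.real {x | t ≤ f x} with hpdef
      set q := μ.real {x | t ≤ Qs f r x} with hqdef
      have e1 : μ {x | t ≤ f x} = ENNReal.ofReal p := by
        rw [hpdef, ofReal_measureReal]
      have e2 : μ {x | t ≤ Qs f r x} = ENNReal.ofReal q := by
        rw [hqdef, ofReal_measureReal]
      rw [e1, e2, ← ENNReal.ofReal_mul hp0.le, ← ENNReal.ofReal_mul hp0.le,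
        ← ENNReal.ofReal_mul (by positivity), ← ENNReal.ofReal_mul measureReal_nonneg,
        ← ENNReal.ofReal_add (mul_nonneg hp0.le (hγ0 t))
          (mul_nonneg (by positivity) (mul_nonneg hp0.le (hw0 t)))]
      apply ENNReal.ofReal_le_ofReal
      have h2 := hwγ t htM hp0
      have h3 : p * (1 + r * √(Real.log (1 / p)) / κ) * γ t ≤ q * γ t :=
        mul_le_mul_of_nonneg_right h1 (hγ0 t)
      have h4 : r / κ * p * w t ≤ r / κ * p * (γ t * √(Real.log (1 / p))) :=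
        mul_le_mul_of_nonneg_left h2 (by positivity)
      calc p * γ t + r / κ * (p * w t) = p * γ t + r / κ * p * w t := by ring
        _ ≤ p * γ t + r / κ * p * (γ t * √(Real.log (1 / p))) := by linarith
        _ = p * (1 + r * √(Real.log (1 / p)) / κ) * γ t := by ring
        _ ≤ q * γ t := h3

/-- upper bound for the increment -/
theorem upper {f : EuclideanSpace ℝ (Fin n) → ℝ} (hf : ContDiff ℝ ∞ f)
    (hc : HasCompactSupport f) (hf0 : ∀ x, 0 ≤ f x) {γ : ℝ → ℝ} (hγ : Continuous γ)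
    (hγ0 : ∀ t, 0 ≤ γ t) {ε : ℝ} (hε : 0 < ε) :
    ∃ δ > 0, ∀ r, 0 < r → r ≤ δ → ∀ x,
      Pr γ (Qs f r x) - Pr γ (f x) ≤ r * ((‖gradient f x‖ + ε) * (γ (f x) + ε)) := by
  have hfc := hf.continuous
  obtain ⟨B, hB0, hB⟩ := bdd_of_compact hfc hc
  have hdiff : Differentiable ℝ f := hf.differentiable (by simp)
  have hdc : Continuous (fderiv ℝ f) := hf.continuous_fderiv (by simp)
  have hdcs : HasCompactSupport (fderiv ℝ f) := hc.fderiv ℝ
  obtain ⟨L, hL⟩ := hdcs.exists_bound_of_continuous hdc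
  have hL0 : 0 ≤ L := (norm_nonneg _).trans (hL 0)
  have huc : UniformContinuous (fderiv ℝ f) := hdcs.uniformContinuous_of_continuous hdc
  obtain ⟨δ1, hδ1, h1⟩ := Metric.uniformContinuous_iff.1 huc ε hε
  have hγu : UniformContinuousOn γ (Icc 0 B) :=
    isCompact_Icc.uniformContinuousOn_of_continuous hγ.continuousOn
  obtain ⟨δ2, hδ2, h2⟩ := Metric.uniformContinuousOn_iff.1 hγu ε hε
  refine ⟨min (δ1 / 2) (δ2 / (2 * (L + 1))), by positivity, fun r hr hrδ x => ?_⟩
  have hr1 : r < δ1 := lt_of_le_of_lt (hrδ.trans (min_le_left _ _)) (by linarith)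
  have hr2 : r * (L + 1) < δ2 := by
    have := hrδ.trans (min_le_right _ _)
    rw [le_div_iff₀ (by positivity)] at this
    nlinarith
  obtain ⟨h, hh, e⟩ := Qs_attained hfc hr.le x
  have hh' : ‖h‖ ≤ r := by simpa using hh
  have hng : ‖gradient f x‖ = ‖fderiv ℝ f x‖ := by
    rw [gradient, LinearIsometryEquiv.norm_map]
  -- first order bound
  have hfd : f (x + h) - f x ≤ r * (‖gradient f x‖ + ε) := by
    have hb : ∀ y ∈ Metric.closedBall x r, ‖fderiv ℝ f y - fderiv ℝ f x‖ ≤ ε := by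
      intro y hy
      have := h1 (a := y) (b := x) (lt_of_le_of_lt hy hr1)
      rw [dist_eq_norm] at this
      exact this.le
    have := (convex_closedBall x r).norm_image_sub_le_of_norm_fderiv_le'
      (fun y _ => hdiff y) hb (Metric.mem_closedBall_self hr.le)
      (y := x + h) (by simpa [dist_eq_norm] using hh')
    rw [add_sub_cancel_left, Real.norm_eq_abs] at this
    have h3 := (abs_le.1 this).2
    have h4 : fderiv ℝ f x h ≤ ‖fderiv ℝ f x‖ * ‖h‖ :=
      (le_abs_self _).trans ((fderiv ℝ f x).le_opNorm h)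
    rw [hng]
    nlinarith [norm_nonneg (fderiv ℝ f x), norm_nonneg h]
  -- Lipschitz bound
  have hlip : f (x + h) - f x ≤ L * r := by
    have := convex_univ.norm_image_sub_le_of_norm_fderiv_le (𝕜 := ℝ) (f := f) (C := L)
      (fun y _ => hdiff y) (fun y _ => hL y) (mem_univ x) (mem_univ (x + h))
    rw [add_sub_cancel_left, Real.norm_eq_abs] at this
    have h3 := (le_abs_self _).trans this
    exact h3.trans (mul_le_mul_of_nonneg_left hh' hL0)
  have hge : f x ≤ Qs f r x := le_Qs_self hfc hr.le x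
  have hQB : Qs f r x ≤ B := by rw [e]; exact (le_abs_self _).trans (hB _)
  have hbound : ∀ t ∈ Icc (f x) (Qs f r x), γ t ≤ γ (f x) + ε := by
    intro t ht
    have hd : dist t (f x) < δ2 := by
      rw [Real.dist_eq, abs_of_nonneg (by linarith [ht.1])]
      have : t - f x ≤ L * r := by
        have := ht.2
        rw [e] at this
        linarith
      nlinarith
    have := h2 t ⟨(hf0 x).trans ht.1, ht.2.trans hQB⟩ (f x)
      ⟨hf0 x, (le_abs_self _).trans (hB x)⟩ hd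
    rw [Real.dist_eq] at this
    have := (abs_lt.1 this).2
    linarith
  have hsplit : Pr γ (Qs f r x) - Pr γ (f x) = ∫ t in (f x)..(Qs f r x), γ t := by
    unfold Pr
    rw [intervalIntegral.integral_interval_sub_left (hγ.intervalIntegrable _ _)
      (hγ.intervalIntegrable _ _)]
  rw [hsplit]
  calc ∫ t in (f x)..(Qs f r x), γ t ≤ ∫ _t in (f x)..(Qs f r x), (γ (f x) + ε) := by
        apply intervalIntegral.integral_mono_on hge (hγ.intervalIntegrable _ _)
          (by simp) hbound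
    _ = (Qs f r x - f x) * (γ (f x) + ε) := by
        rw [intervalIntegral.integral_const, smul_eq_mul]
    _ ≤ (r * (‖gradient f x‖ + ε)) * (γ (f x) + ε) := by
        apply mul_le_mul_of_nonneg_right _ (by have := hγ0 (f x); linarith)
        rw [e]
        exact hfd
    _ = r * ((‖gradient f x‖ + ε) * (γ (f x) + ε)) := by ring

theorem sup : StSup := by
  intro n μ _ κ r₀ hκ hr₀ hiso f hf hc hf0 hq M hM0 hM γ w hγ hw hγ0 hw0 hwM hwγ
  have hfc := hf.continuous
  obtain ⟨B, hB0, hB⟩ := bdd_of_compact hfc hc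
  have hfB : ∀ x, f x ≤ B := fun x => (le_abs_self _).trans (hB x)
  have hdc : Continuous (fderiv ℝ f) := hf.continuous_fderiv (by simp)
  have hdcs : HasCompactSupport (fderiv ℝ f) := hc.fderiv ℝ
  obtain ⟨L, hL⟩ := hdcs.exists_bound_of_continuous hdc
  have hng : ∀ x, ‖gradient f x‖ = ‖fderiv ℝ f x‖ := by
    intro x
    rw [gradient, LinearIsometryEquiv.norm_map]
  have hgc : Continuous fun x => ‖gradient f x‖ := by
    simp_rw [hng]
    exact hdc.norm
  have hgi : Integrable (fun x => ‖gradient f x‖) μ := by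
    refine int_bdd hgc (B := L) fun x => ?_
    rw [abs_of_nonneg (norm_nonneg _), hng]
    exact hL x
  have hγb : ∃ Γ, ∀ x, |γ (f x)| ≤ Γ := by
    obtain ⟨Γ, hΓ⟩ := (isCompact_Icc (a := (0 : ℝ)) (b := B)).exists_bound_of_continuousOn
      hγ.continuousOn
    exact ⟨Γ, fun x => hΓ _ ⟨hf0 x, hfB x⟩⟩
  obtain ⟨Γ, hΓ⟩ := hγb
  have hγi : Integrable (fun x => γ (f x)) μ := int_bdd (hγ.comp hfc) hΓ
  have hγgi : Integrable (fun x => γ (f x) * ‖gradient f x‖) μ := by
    refine int_bdd ((hγ.comp hfc).mul hgc) (B := Γ * L) fun x => ?_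
    rw [abs_mul]
    apply mul_le_mul (hΓ x) _ (abs_nonneg _) ((abs_nonneg _).trans (hΓ x))
    rw [abs_of_nonneg (norm_nonneg _), hng]
    exact hL x
  have key : ∀ ε : ℝ, 0 < ε → ∫ x, Pr w (f x) ∂μ ≤
      κ * (∫ x, γ (f x) * ‖gradient f x‖ ∂μ + ε * ((∫ x, γ (f x) ∂μ)
        + (∫ x, ‖gradient f x‖ ∂μ) + ε)) := by
    intro ε hε
    obtain ⟨δ, hδ, h1⟩ := upper hf hc hf0 hγ hγ0 hε
    set r := min δ r₀ with hr
    have hr0 : 0 < r := lt_min hδ hr₀
    have h2 := lower hκ hiso hfc hc hf0 hq hM hγ hw hγ0 hw0 hwM hwγ hr0 (min_le_right _ _)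
    have hQ0 : ∀ x, 0 ≤ Qs f r x := fun x => (hf0 x).trans (le_Qs_self hfc hr0.le x)
    have hQB : ∀ x, Qs f r x ≤ B := by
      intro x
      obtain ⟨h, -, e⟩ := Qs_attained hfc hr0.le x
      rw [e]
      exact hfB _
    have h3 : ∫ x, Pr γ (Qs f r x) ∂μ - ∫ x, Pr γ (f x) ∂μ ≤
        ∫ x, r * ((‖gradient f x‖ + ε) * (γ (f x) + ε)) ∂μ := by
      rw [← integral_sub (int_Pr hγ hγ0 (Qs_continuous hfc r) hQB hQ0)
        (int_Pr hγ hγ0 hfc hfB hf0)]
      apply integral_mono ((int_Pr hγ hγ0 (Qs_continuous hfc r) hQB hQ0).sub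
        (int_Pr hγ hγ0 hfc hfB hf0)) _ (fun x => h1 r hr0 (min_le_left _ _) x)
      apply Integrable.const_mul
      have : (fun x => (‖gradient f x‖ + ε) * (γ (f x) + ε)) = fun x =>
          γ (f x) * ‖gradient f x‖ + (ε * γ (f x) + (ε * ‖gradient f x‖ + ε * ε)) := by
        funext x
        ring
      rw [this]
      exact hγgi.add ((hγi.const_mul ε).add ((hgi.const_mul ε).add (integrable_const _)))
    rw [integral_const_mul] at h3
    have h4 : ∫ x, (‖gradient f x‖ + ε) * (γ (f x) + ε) ∂μ =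
        ∫ x, γ (f x) * ‖gradient f x‖ ∂μ + ε * ((∫ x, γ (f x) ∂μ)
          + (∫ x, ‖gradient f x‖ ∂μ) + ε) := by
      have : (fun x => (‖gradient f x‖ + ε) * (γ (f x) + ε)) = fun x =>
          γ (f x) * ‖gradient f x‖ + (ε * γ (f x) + (ε * ‖gradient f x‖ + ε * ε)) := by
        funext x
        ring
      have a1 : Integrable (fun x => ε * ‖gradient f x‖ + ε * ε) μ :=
        (hgi.const_mul ε).add (integrable_const _)
      have a2 : Integrable (fun x => ε * γ (f x) + (ε * ‖gradient f x‖ + ε * ε)) μ :=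
        (hγi.const_mul ε).add a1
      rw [this, integral_add hγgi a2, integral_add (hγi.const_mul ε) a1,
        integral_add (hgi.const_mul ε) (integrable_const _),
        integral_const_mul, integral_const_mul, integral_const]
      simp
      ring
    rw [h4] at h3
    set I := ∫ x, Pr w (f x) ∂μ
    set J := ∫ x, γ (f x) * ‖gradient f x‖ ∂μ + ε * ((∫ x, γ (f x) ∂μ)
          + (∫ x, ‖gradient f x‖ ∂μ) + ε)
    have h5 : r / κ * I ≤ r * J := by linarith
    have h6 : r * (I / κ) ≤ r * J := by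
      calc r * (I / κ) = r / κ * I := by ring
        _ ≤ r * J := h5
    have h7 := le_of_mul_le_mul_left h6 hr0
    rw [div_le_iff₀ hκ] at h7
    linarith
  have hlim : Tendsto (fun ε : ℝ => κ * (∫ x, γ (f x) * ‖gradient f x‖ ∂μ
      + ε * ((∫ x, γ (f x) ∂μ) + (∫ x, ‖gradient f x‖ ∂μ) + ε))) (𝓝[>] 0)
      (𝓝 (κ * (∫ x, γ (f x) * ‖gradient f x‖ ∂μ
      + 0 * ((∫ x, γ (f x) ∂μ) + (∫ x, ‖gradient f x‖ ∂μ) + 0)))) := by
    apply Tendsto.mono_left _ nhdsWithin_le_nhds
    have : Continuous fun ε : ℝ => κ * (∫ x, γ (f x) * ‖gradient f x‖ ∂μ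
      + ε * ((∫ x, γ (f x) ∂μ) + (∫ x, ‖gradient f x‖ ∂μ) + ε)) := by fun_prop
    exact this.tendsto 0
  rw [zero_mul, add_zero] at hlim
  refine ge_of_tendsto hlim ?_
  filter_upwards [self_mem_nhdsWithin] with ε hε
  exact key ε hε

end Vale.Agent.P245.QC
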