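import Vale.Agent.P245.Defs

/-! P245, rows for: log-Sobolev inequality for quasi-concave functions (helper719) -/

open MeasureTheory Set Filter Topology
open scoped ENNReal ContDiff

namespace Vale.Agent.P245.QC

/-- Gaussian lower deviations of convex 1-Lipschitz functions (607's `conc`) -/
def CC {n : ℕ} (μ : Measure (EuclideanSpace ℝ (Fin n))) (K : ℝ) : Prop :=
  ∀ F : EuclideanSpace ℝ (Fin n) → ℝ, LipschitzWith 1 F → ConvexOn ℝ univ F → ∀ t : ℝ, 0 ≤ t →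
    ∫ x, Real.exp (-t * (F x - ∫ y, F y ∂μ)) ∂μ ≤ Real.exp (K * t ^ 2)

/-- isoperimetric inequality for closed convex sets, in thickening form -/
def Iso {n : ℕ} (μ : Measure (EuclideanSpace ℝ (Fin n))) (κ r₀ : ℝ) : Prop :=
  ∀ A : Set (EuclideanSpace ℝ (Fin n)), Convex ℝ A → IsClosed A → 0 < μ.real A →
    μ.real A ≤ 1 / 2 → ∀ r : ℝ, 0 ≤ r → r ≤ r₀ →
    μ.real A * (1 + r * √(Real.log (1 / μ.real A)) / κ) ≤ μ.real (Metric.cthickening r A)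

/-- row BM: Brunn-Minkowski for a log-concave measure (from Prekopa-Leindler) -/
def StBM : Prop :=
  ∀ (n : ℕ) (μ : Measure (EuclideanSpace ℝ (Fin n))) [IsProbabilityMeasure μ],
    HasLogConcaveDensity μ → ∀ A B C : Set (EuclideanSpace ℝ (Fin n)),
    MeasurableSet A → MeasurableSet B → MeasurableSet C → ∀ s : ℝ, 0 < s → s < 1 →
    (∀ x ∈ A, ∀ y ∈ B, (1 - s) • x + s • y ∈ C) →
    μ.real A ^ (1 - s) * μ.real B ^ s ≤ μ.real C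

/-- row ISO: `CC` and BM give the isoperimetric inequality for convex sets -/
def StIso : Prop :=
  ∀ (n : ℕ) (μ : Measure (EuclideanSpace ℝ (Fin n))) [IsProbabilityMeasure μ],
    HasLogConcaveDensity μ → ∀ K : ℝ, 0 < K → CC μ K →
    (∀ F : EuclideanSpace ℝ (Fin n) → ℝ, LipschitzWith 1 F → Integrable F μ) →
    Iso μ (16 * √K) (8 * √(K * Real.log 2))

/-- row SUP: functional form of the isoperimetric inequality -/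
def StSup : Prop :=
  ∀ (n : ℕ) (μ : Measure (EuclideanSpace ℝ (Fin n))) [IsProbabilityMeasure μ] (κ r₀ : ℝ),
    0 < κ → 0 < r₀ → Iso μ κ r₀ →
    ∀ f : EuclideanSpace ℝ (Fin n) → ℝ, ContDiff ℝ ∞ f → HasCompactSupport f → (∀ x, 0 ≤ f x) →
    QuasiconcaveOn ℝ univ f → ∀ M : ℝ, 0 ≤ M →
    (∀ t, M < t → μ.real {x | t ≤ f x} ≤ 1 / 2) → ∀ γ w : ℝ → ℝ, Continuous γ → Continuous w →
    (∀ t, 0 ≤ γ t) → (∀ t, 0 ≤ w t) → (∀ t ≤ M, w t = 0) →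
    (∀ t, M < t → 0 < μ.real {x | t ≤ f x} →
      w t ≤ γ t * √(Real.log (1 / μ.real {x | t ≤ f x}))) →
    ∫ x, (∫ t in (0 : ℝ)..(f x), w t) ∂μ ≤ κ * ∫ x, γ (f x) * ‖gradient f x‖ ∂μ

/-- row MED: a median -/
def StMed : Prop :=
  ∀ (n : ℕ) (μ : Measure (EuclideanSpace ℝ (Fin n))) [IsProbabilityMeasure μ]
    (f : EuclideanSpace ℝ (Fin n) → ℝ), Continuous f → HasCompactSupport f → (∀ x, 0 ≤ f x) →
    ∃ M : ℝ, 0 ≤ M ∧ (∀ t, M < t → μ.real {x | t ≤ f x} ≤ 1 / 2) ∧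
      ∫ x, (f x - M) ^ 2 ∂μ ≤ 3 * ((∫ x, f x ^ 2 ∂μ) - (∫ x, f x ∂μ) ^ 2)

/-- row PW: the pointwise inequality behind the entropy estimate -/
def StPW : Prop :=
  ∀ M G u : ℝ, 0 ≤ M → 0 < G → 0 ≤ u →
    u ^ 2 * Real.log (u ^ 2) - u ^ 2 * Real.log (M ^ 2 + G) - u ^ 2 + (M ^ 2 + G) ≤
      10 * (u - M) ^ 2 + 10 * G +
        10 * (max (u - M) 0 ^ 2 * Real.log (Real.exp 1 + max (u - M) 0 ^ 2 / G))

/-- row EB: `∫ Φ(g) ≤ (128 κ)^2 ∫ |∇f|^2 / 256`-type bound for `g = (f - M)_+` -/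
def StEB : Prop :=
  ∀ (n : ℕ) (μ : Measure (EuclideanSpace ℝ (Fin n))) [IsProbabilityMeasure μ] (κ : ℝ), 0 < κ →
    ∀ f : EuclideanSpace ℝ (Fin n) → ℝ, ContDiff ℝ ∞ f → HasCompactSupport f → (∀ x, 0 ≤ f x) →
    ∀ M : ℝ, 0 ≤ M → (∀ t, M < t → μ.real {x | t ≤ f x} ≤ 1 / 2) →
    (∀ γ w : ℝ → ℝ, Continuous γ → Continuous w →
      (∀ t, 0 ≤ γ t) → (∀ t, 0 ≤ w t) → (∀ t ≤ M, w t = 0) →
      (∀ t, M < t → 0 < μ.real {x | t ≤ f x} →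
        w t ≤ γ t * √(Real.log (1 / μ.real {x | t ≤ f x}))) →
      ∫ x, (∫ t in (0 : ℝ)..(f x), w t) ∂μ ≤ κ * ∫ x, γ (f x) * ‖gradient f x‖ ∂μ) →
    ∀ G : ℝ, 0 < G → ∫ x, max (f x - M) 0 ^ 2 ∂μ ≤ G →
    ∫ x, max (f x - M) 0 ^ 2 * Real.log (Real.exp 1 + max (f x - M) 0 ^ 2 / G) ∂μ ≤
      64 * κ ^ 2 * ∫ x, ‖gradient f x‖ ^ 2 ∂μ

/-- row FIN: the entropy inequality -/
def StFin : Prop :=
  ∀ (n : ℕ) (μ : Measure (EuclideanSpace ℝ (Fin n))) [IsProbabilityMeasure μ] (κ r₀ P : ℝ),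
    0 < κ → 0 < r₀ → 0 ≤ P → Iso μ κ r₀ →
    (∀ f : EuclideanSpace ℝ (Fin n) → ℝ, ContDiff ℝ ∞ f → HasCompactSupport f →
      (∫ x, f x ^ 2 ∂μ) - (∫ x, f x ∂μ) ^ 2 ≤ P * ∫ x, ‖gradient f x‖ ^ 2 ∂μ) →
    ∀ f : EuclideanSpace ℝ (Fin n) → ℝ, ContDiff ℝ ∞ f → HasCompactSupport f → (∀ x, 0 ≤ f x) →
    QuasiconcaveOn ℝ univ f →
    Entropy μ (fun x => f x ^ 2) ≤ (60 * P + 640 * κ ^ 2) * ∫ x, ‖gradient f x‖ ^ 2 ∂μ

end Vale.Agent.P245.QC
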