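import Vale.Agent.P245.H607.Cor
import Vale.Agent.P245.H847.HandIn
import Vale.Agent.P245.H68.Conv
import Vale.Agent.P245.QC.Iface

/-! P245: assembly of the log-Sobolev inequality for quasi-concave functions (helper719) -/

open MeasureTheory Set Filter Topology
open scoped ENNReal ContDiff

namespace Vale.Agent.P245.QC

/-- a continuous function whose absolute value is quasi-concave has one sign -/
theorem sign_of_quasiconcave {n : ℕ} {f : EuclideanSpace ℝ (Fin n) → ℝ} (hf : Continuous f)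
    (hq : QuasiconcaveOn ℝ univ (fun x => |f x|)) : (∀ x, 0 ≤ f x) ∨ (∀ x, 0 ≤ -f x) := by
  by_contra hcon
  push Not at hcon
  obtain ⟨⟨x, hx⟩, y, hy⟩ := hcon
  have hy' : 0 < f y := by linarith
  set t := min |f x| |f y| with ht
  have ht0 : 0 < t := lt_min (abs_pos.2 hx.ne) (abs_pos.2 hy'.ne')
  have hS : Convex ℝ {z ∈ (univ : Set (EuclideanSpace ℝ (Fin n))) | t ≤ |f z|} := hq t
  have hpre := hS.isPreconnected
  have h0 := hpre.intermediate_value (a := x) (b := y) (f := f)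
    ⟨mem_univ _, min_le_left _ _⟩ ⟨mem_univ _, min_le_right _ _⟩ hf.continuousOn
    (show (0 : ℝ) ∈ Icc (f x) (f y) from ⟨hx.le, hy'.le⟩)
  obtain ⟨z, hz, hz0⟩ := h0
  have h1 : t ≤ |f z| := hz.2
  rw [hz0, abs_zero] at h1
  linarith

theorem main2 (hIso : StIso) (hFin : StFin) (hKLS : ∃ C : ℝ, 0 < C ∧ H607.KLS C) :
    ∃ C : ℝ, 0 < C ∧ ∀ (n : ℕ) (μ : Measure (EuclideanSpace ℝ (Fin n))) [IsProbabilityMeasure μ],
      HasLogConcaveDensity μ → ∀ a : ℝ, 0 < a → LinearlySubgaussian μ a →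
      (∀ A : Set (EuclideanSpace ℝ (Fin n)), Convex ℝ A → IsClosed A → 0 < μ.real A →
        μ.real A ≤ 1 / 2 → ∀ r : ℝ, 0 ≤ r → r ≤ a →
        μ.real A * (1 + r * √(Real.log (1 / μ.real A)) / (C * a)) ≤
          μ.real (Metric.cthickening r A)) ∧
      (∀ f : EuclideanSpace ℝ (Fin n) → ℝ, ContDiff ℝ ∞ f → HasCompactSupport f → ∀ T : ℝ,
        (∀ t, T < t → Convex ℝ {x | t ≤ |f x|}) →
        Entropy μ (fun x => f x ^ 2) ≤ C * (1 + Real.log (1 + T ^ 2 / ∫ x, f x ^ 2 ∂μ)) * a ^ 2 *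
          ∫ x, ‖gradient f x‖ ^ 2 ∂μ) := by
  obtain ⟨C0, hC0, hK⟩ := hKLS
  set B := 8 * C0 + 26 with hB
  have hB26 : 26 ≤ B := by rw [hB]; linarith
  have hB0 : 0 < B := by linarith
  have hsB : 5 ≤ √B := by
    rw [show (5 : ℝ) = √25 by rw [show (25 : ℝ) = 5 ^ 2 by norm_num]; simp]
    exact Real.sqrt_le_sqrt (by linarith)
  refine ⟨4 * (60 * (200 * C0) + 640 * (256 * B)) + 40 * (200 * C0) + 16 * √B, by positivity,
    fun n μ _ hlc a ha hsub => ?_⟩
  set D := 60 * (200 * C0) + 640 * (256 * B) with hD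
  have hD0 : 0 < D := by positivity
  set C := 4 * D + 40 * (200 * C0) + 16 * √B with hC
  have hCpos : 0 < C := by positivity
  have hKp : 0 < B * a ^ 2 := by positivity
  have hCC : CC μ (B * a ^ 2) := by
    intro F hF hconv t ht
    exact H607.conc ha hC0 hK hlc hsub hF hconv ht
  have hint : ∀ F : EuclideanSpace ℝ (Fin n) → ℝ, LipschitzWith 1 F → Integrable F μ :=
    fun F hF => H607.lip_integrable ha hsub hF
  have hiso := hIso n μ hlc (B * a ^ 2) hKp hCC hint
  have hsq : √(B * a ^ 2) = √B * a := by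
    rw [Real.sqrt_mul hB0.le, Real.sqrt_sq ha.le]
  have hl2 : (0.6931471803 : ℝ) < Real.log 2 := Real.log_two_gt_d9
  have hr0 : a ≤ 8 * √(B * a ^ 2 * Real.log 2) := by
    have h1 : a ≤ √(B * a ^ 2 * Real.log 2) := by
      rw [Real.le_sqrt' ha]
      have : 1 ≤ B * Real.log 2 := by nlinarith
      nlinarith [sq_nonneg a]
    linarith [Real.sqrt_nonneg (B * a ^ 2 * Real.log 2)]
  have hr0pos : 0 < 8 * √(B * a ^ 2 * Real.log 2) := lt_of_lt_of_le ha hr0
  refine ⟨fun A hA hAc hp0 hp2 r hr hra => ?_, fun f hf hc T hT => ?_⟩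
  · have h1 := hiso A hA hAc hp0 hp2 r hr (hra.trans hr0)
    refine le_trans ?_ h1
    apply mul_le_mul_of_nonneg_left _ hp0.le
    have h2 : r * √(Real.log (1 / μ.real A)) / (C * a) ≤
        r * √(Real.log (1 / μ.real A)) / (16 * √(B * a ^ 2)) := by
      apply div_le_div_of_nonneg_left (by positivity) (by positivity)
      rw [hsq]
      have : 16 * √B ≤ C := by rw [hC]; linarith
      nlinarith
    linarith
  · have hPoin : ∀ u : EuclideanSpace ℝ (Fin n) → ℝ, ContDiff ℝ ∞ u → HasCompactSupport u →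
        (∫ x, u x ^ 2 ∂μ) - (∫ x, u x ∂μ) ^ 2 ≤
          200 * C0 * a ^ 2 * ∫ x, ‖gradient u x‖ ^ 2 ∂μ := by
      intro u hu huc
      exact ((H847.handin hC0 hK n μ hlc (fun i => ∫ x, x i ∂μ)
        (fun i j => ∫ x, (x i - ∫ y, y i ∂μ) * (x j - ∫ y, y j ∂μ) ∂μ) (fun _ => rfl)
        (fun _ _ => rfl) u hu huc).2.2 a ha hsub).1
    have hI0 : 0 ≤ ∫ x, ‖gradient f x‖ ^ 2 ∂μ := integral_nonneg fun x => by positivity
    have hconst : 60 * (200 * C0 * a ^ 2) + 640 * (16 * √(B * a ^ 2)) ^ 2 ≤ D * a ^ 2 := by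
      rw [mul_pow, Real.sq_sqrt hKp.le, hD]
      nlinarith [sq_nonneg a]
    have hκ : 0 < 16 * √(B * a ^ 2) := by positivity
    have hgen : ∀ g : EuclideanSpace ℝ (Fin n) → ℝ, ContDiff ℝ ∞ g → HasCompactSupport g →
        (∀ x, 0 ≤ g x) → QuasiconcaveOn ℝ univ g →
        Entropy μ (fun x => g x ^ 2) ≤ D * a ^ 2 * ∫ x, ‖gradient g x‖ ^ 2 ∂μ := by
      intro g hg hgc hg0 hgq
      have hI0 : 0 ≤ ∫ x, ‖gradient g x‖ ^ 2 ∂μ := integral_nonneg fun x => by positivity
      exact (hFin n μ _ _ _ hκ hr0pos (by positivity) hiso hPoin g hg hgc hg0 hgq).trans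
        (mul_le_mul_of_nonneg_right hconst hI0)
    have hQC : ∀ g : EuclideanSpace ℝ (Fin n) → ℝ, ContDiff ℝ ∞ g → HasCompactSupport g →
        QuasiconcaveOn ℝ univ (fun x => |g x|) →
        Entropy μ (fun x => g x ^ 2) ≤ D * a ^ 2 * ∫ x, ‖gradient g x‖ ^ 2 ∂μ := by
      intro g hg hgc hq
      rcases sign_of_quasiconcave hg.continuous hq with h | h
      · have e : (fun x => |g x|) = g := by
          funext x
          exact abs_of_nonneg (h x)
        rw [e] at hq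
        exact hgen g hg hgc h hq
      · have e : (fun x => |g x|) = fun x => -g x := by
          funext x
          have := h x
          exact abs_of_nonpos (by linarith)
        rw [e] at hq
        have h1 := hgen (fun x => -g x) hg.neg hgc.neg h hq
        have e1 : ∀ x, gradient (fun x => -g x) x = -gradient g x := by
          intro x
          unfold gradient
          rw [fderiv_fun_neg, map_neg]
        simpa [e1, neg_sq, norm_neg] using h1
    have hfin := H68.high_convex (D := D * a ^ 2) (P := 200 * C0 * a ^ 2) (by positivity)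
      (by positivity) hQC hPoin hf hc hT
    have hm0 : 0 ≤ ∫ x, f x ^ 2 ∂μ := integral_nonneg fun x => sq_nonneg _
    have hl0 : 0 ≤ 1 + Real.log (1 + T ^ 2 / ∫ x, f x ^ 2 ∂μ) := by
      have := Real.log_nonneg (x := 1 + T ^ 2 / ∫ x, f x ^ 2 ∂μ)
        (by linarith [div_nonneg (sq_nonneg T) hm0])
      linarith
    refine hfin.trans ?_
    apply mul_le_mul_of_nonneg_right _ hI0
    have h5 : (4 * (D * a ^ 2) + 40 * (200 * C0 * a ^ 2)) ≤ C * a ^ 2 := by
      rw [hC]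
      nlinarith [mul_nonneg (Real.sqrt_nonneg B) (sq_nonneg a)]
    calc (4 * (D * a ^ 2) + 40 * (200 * C0 * a ^ 2)) *
          (1 + Real.log (1 + T ^ 2 / ∫ x, f x ^ 2 ∂μ)) ≤
        C * a ^ 2 * (1 + Real.log (1 + T ^ 2 / ∫ x, f x ^ 2 ∂μ)) :=
          mul_le_mul_of_nonneg_right h5 hl0
      _ = C * (1 + Real.log (1 + T ^ 2 / ∫ x, f x ^ 2 ∂μ)) * a ^ 2 := by ring

end Vale.Agent.P245.QC
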